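import Vale.Agent.P335.Final

namespace Vale.Agent.Results.P335.KTV

open Vale.Agent.P335

theorem result : ∃ p : Polynomial ℕ, ∀ n : ℕ, 4 ≤ n → ∀ d : Fin n → ℕ,
    Nonempty (Realization n d) → ∃ t : ℕ, t ≤ p.eval n ∧ ∀ G : Realization n d,
      (1 / 2 : ℝ) * ∑ G' : Realization n d,
        |(switchChain n d ^ t) G G' - 1 / (Fintype.card (Realization n d) : ℝ)| ≤ 1 / 4 := by
  refine ⟨4 * (2 ^ 20 * Polynomial.X ^ 8) * (Polynomial.X ^ 2 + 2), fun n hn d _ =>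
    ⟨4 * (2 ^ 20 * n ^ 8) * (n ^ 2 + 2), le_of_eq ?_, fun G => main hn d _ rfl G⟩⟩
  simp only [Polynomial.eval_mul, Polynomial.eval_add, Polynomial.eval_pow, Polynomial.eval_X,
    Polynomial.eval_ofNat]

end Vale.Agent.Results.P335.KTV
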